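/-
helper9 -- S0355 squad (track D), leaf C1 "Exit": the combinatorial decomposition of the sweep
of the polytope `KP` (pure sets / algebra).  Same names and signatures as
`Crest.Agent.Helper28.S0355.Blueprint`.
-/
import Crest.Agent.Helper28.S0355.Defs

set_option autoImplicit false
open MeasureTheory
open scoped ENNReal Pointwise

namespace Crest.Agent.Helper9.S0355

open Crest.Agent.Helper28.S0355

theorem mem_KP_iff (x : P20) : x ∈ KP ↔ ∀ k : Fin 20 ⊕ Bool, lc k x ≤ bc k := by
  constructor
  · rintro ⟨h0, h1, h2⟩ k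
    rcases k with j | b
    · have := h0 j
      simp only [lc, bc]
      linarith
    · cases b
      · simpa [lc, bc] using h1
      · simpa [lc, bc] using h2
  · intro h
    refine ⟨fun i => ?_, ?_, ?_⟩
    · have := h (Sum.inl i)
      simp only [lc, bc] at this
      linarith
    · simpa [lc, bc] using h (Sum.inr false)
    · simpa [lc, bc] using h (Sum.inr true)

theorem lc_sub_smul (k : Fin 20 ⊕ Bool) (x u : P20) (t : ℝ) :
    lc k (x - t • u) = lc k x - t * lc k u := by
  rcases k with j | b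
  · simp only [lc, Pi.sub_apply, Pi.smul_apply, smul_eq_mul]
    ring
  · cases b
    · simp only [lc, s1, Pi.sub_apply, Pi.smul_apply, smul_eq_mul, Finset.sum_sub_distrib,
        Finset.mul_sum]
    · simp only [lc, s2, Pi.sub_apply, Pi.smul_apply, smul_eq_mul, Finset.sum_sub_distrib,
        Finset.mul_sum]

theorem sweep_KP_subset (u : P20) :
    sweep KP u ⊆ KP ∪ ⋃ k : Fin 20 ⊕ Bool, if 0 < lc k u then sweep (facet k) u else ∅ := by
  rintro x ⟨t, ⟨ht0, ht1⟩, hxt⟩
  by_cases hx : x ∈ KP
  · exact Or.inl hx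
  right
  rw [mem_KP_iff] at hxt hx
  push Not at hx
  obtain ⟨k0, hk0⟩ := hx
  -- `k0` is violated at `x` but not at `x - t • u`, so `lc k0 u > 0` and `t > 0`.
  have hk0t := hxt k0
  rw [lc_sub_smul] at hk0t
  have htu : 0 < t * lc k0 u := by linarith
  have hk0u : 0 < lc k0 u := by
    by_contra hcon
    push Not at hcon
    have : t * lc k0 u ≤ 0 := mul_nonpos_of_nonneg_of_nonpos ht0 hcon
    linarith
  -- the candidates
  set F : Finset (Fin 20 ⊕ Bool) := Finset.univ.filter (fun k => 0 < lc k u) with hF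
  have hFne : F.Nonempty := ⟨k0, by simp [hF, hk0u]⟩
  obtain ⟨ks, hksF, hmax⟩ :=
    Finset.exists_max_image F (fun k => (lc k x - bc k) / lc k u) hFne
  have hksu : 0 < lc ks u := by simpa [hF] using hksF
  set s0 : ℝ := (lc ks x - bc ks) / lc ks u with hs0
  have hs0_pos : 0 < s0 := by
    have h1 : (lc k0 x - bc k0) / lc k0 u ≤ s0 := hmax k0 (by simp [hF, hk0u])
    have h2 : 0 < (lc k0 x - bc k0) / lc k0 u := div_pos (by linarith) hk0u
    linarith
  have hs0_le : s0 ≤ t := by
    have := hxt ks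
    rw [lc_sub_smul] at this
    rw [hs0, div_le_iff₀ hksu]
    linarith
  have htight : lc ks (x - s0 • u) = bc ks := by
    rw [lc_sub_smul, hs0, div_mul_cancel₀ _ hksu.ne']
    ring
  have hmemKP : x - s0 • u ∈ KP := by
    rw [mem_KP_iff]
    intro k
    rw [lc_sub_smul]
    by_cases hku : 0 < lc k u
    · have h1 : (lc k x - bc k) / lc k u ≤ s0 := hmax k (by simp [hF, hku])
      rw [div_le_iff₀ hku] at h1
      linarith
    · push Not at hku
      have h1 := hxt k
      rw [lc_sub_smul] at h1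
      have h2 : t * lc k u ≤ s0 * lc k u := mul_le_mul_of_nonpos_right hs0_le hku
      linarith
  refine Set.mem_iUnion.2 ⟨ks, ?_⟩
  rw [if_pos hksu]
  exact ⟨s0, ⟨hs0_pos.le, hs0_le.trans ht1⟩, hmemKP, htight⟩

theorem KP_inter_sweep_facet_subset (u : P20) (k : Fin 20 ⊕ Bool) (hk : 0 < lc k u) :
    KP ∩ sweep (facet k) u ⊆ {x | lc k x = bc k} := by
  rintro x ⟨hx, t, ⟨ht0, _⟩, _, htight⟩
  rw [lc_sub_smul] at htight
  have h1 := (mem_KP_iff x).1 hx k
  have h2 : 0 ≤ t * lc k u := mul_nonneg ht0 hk.le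
  show lc k x = bc k
  linarith

theorem sweep_facet_inter_subset (u : P20) (k k' : Fin 20 ⊕ Bool) (hk : 0 < lc k u)
    (hk' : 0 < lc k' u) :
    sweep (facet k) u ∩ sweep (facet k') u ⊆
      {x | lc k' u * lc k x - lc k u * lc k' x = lc k' u * bc k - lc k u * bc k'} := by
  rintro x ⟨⟨t, _, hKP, htight⟩, ⟨t', _, hKP', htight'⟩⟩
  rw [lc_sub_smul] at htight htight'
  -- the other constraint at each of the two points
  have h1 := (mem_KP_iff _).1 hKP k'
  have h2 := (mem_KP_iff _).1 hKP' k
  rw [lc_sub_smul] at h1 h2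
  have ht't : t' ≤ t := by
    have : t' * lc k' u ≤ t * lc k' u := by linarith
    exact le_of_mul_le_mul_right this hk'
  have htt' : t ≤ t' := by
    have : t * lc k u ≤ t' * lc k u := by linarith
    exact le_of_mul_le_mul_right this hk
  have hEq : t = t' := le_antisymm htt' ht't
  subst hEq
  show lc k' u * lc k x - lc k u * lc k' x = lc k' u * bc k - lc k u * bc k'
  have e1 : lc k x = bc k + t * lc k u := by linarith
  have e2 : lc k' x = bc k' + t * lc k' u := by linarith
  rw [e1, e2]
  ring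

end Crest.Agent.Helper9.S0355
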